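import Vale.Agent.P048.Sat.FastGraph
import Vale.Agent.P048.Sat.Z7x17.In0
import Vale.Agent.P048.Sat.Z7x17.In1
import Vale.Agent.P048.Sat.Z7x17.In2
import Vale.Agent.P048.Sat.Z7x17.In3
import Vale.Agent.P048.Sat.Z7x17.In4
import Vale.Agent.P048.Sat.Z7x17.Pf0
import Vale.Agent.P048.Sat.Z7x17.Pf1

namespace Vale.Agent.P048.Sat.Z7x17

open Vale.Agent.P048.Sat Vale.Agent.P048.Sat.Fast

theorem unsat (A : ℕ → ℕ → Prop) (hA : Model sp A) : False := by
  have h0 : ∀ j, j < 0 → Fast.CSat (tauOf A) 512 (cls j) := fun j hj => absurd hj (Nat.not_lt_zero j)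
  have h1 := Fast.checkIn_sound hA in0 h0
  have h2 := Fast.checkIn_sound hA in1 h1
  have h3 := Fast.checkIn_sound hA in2 h2
  have h4 := Fast.checkIn_sound hA in3 h3
  have h5 := Fast.checkIn_sound hA in4 h4
  have h6 := Fast.checkIn_sound hA in5 h5
  have h7 := Fast.checkIn_sound hA in6 h6
  have h8 := Fast.checkIn_sound hA in7 h7
  have h9 := Fast.checkIn_sound hA in8 h8
  have h10 := Fast.checkIn_sound hA in9 h9
  have h11 := Fast.checkIn_sound hA in10 h10
  have h12 := Fast.checkIn_sound hA in11 h11
  have h13 := Fast.checkIn_sound hA in12 h12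
  have h14 := Fast.checkIn_sound hA in13 h13
  have h15 := Fast.checkIn_sound hA in14 h14
  have h16 := Fast.checkIn_sound hA in15 h15
  have h17 := Fast.checkIn_sound hA in16 h16
  have h18 := Fast.checkIn_sound hA in17 h17
  have h19 := Fast.checkIn_sound hA in18 h18
  have h20 := Fast.checkIn_sound hA in19 h19
  have h21 := Fast.checkIn_sound hA in20 h20
  have h22 := Fast.checkIn_sound hA in21 h21
  have h23 := Fast.checkIn_sound hA in22 h22
  have h24 := Fast.checkIn_sound hA in23 h23
  have h25 := Fast.checkIn_sound hA in24 h24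
  have h26 := Fast.checkIn_sound hA in25 h25
  have h27 := Fast.checkIn_sound hA in26 h26
  have h28 := Fast.checkIn_sound hA in27 h27
  have h29 := Fast.checkIn_sound hA in28 h28
  have h30 := Fast.checkIn_sound hA in29 h29
  have h31 := Fast.checkIn_sound hA in30 h30
  have h32 := Fast.checkIn_sound hA in31 h31
  have h33 := Fast.checkIn_sound hA in32 h32
  have h34 := Fast.checkIn_sound hA in33 h33
  have h35 := Fast.checkIn_sound hA in34 h34
  have h36 := Fast.checkIn_sound hA in35 h35
  have h37 := Fast.checkIn_sound hA in36 h36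
  have h38 := Fast.checkIn_sound hA in37 h37
  have h39 := Fast.checkRange_sound 9 (by norm_num) pf0 h38
  have h40 := Fast.checkRange_sound 9 (by norm_num) pf1 h39
  have h41 := Fast.checkRange_sound 9 (by norm_num) pf2 h40
  have h42 := Fast.checkRange_sound 9 (by norm_num) pf3 h41
  have h43 := Fast.checkRange_sound 9 (by norm_num) pf4 h42
  have h44 := Fast.checkRange_sound 9 (by norm_num) pf5 h43
  have h45 := Fast.checkRange_sound 9 (by norm_num) pf6 h44
  have h46 := Fast.checkRange_sound 9 (by norm_num) pf7 h45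
  have h47 := Fast.checkRange_sound 9 (by norm_num) pf8 h46
  have h48 := Fast.checkRange_sound 9 (by norm_num) pf9 h47
  have h49 := Fast.checkRange_sound 9 (by norm_num) pf10 h48
  have h50 := Fast.checkRange_sound 9 (by norm_num) pf11 h49
  have h51 := Fast.checkRange_sound 9 (by norm_num) pf12 h50
  have h52 := Fast.checkRange_sound 9 (by norm_num) pf13 h51
  have h53 := Fast.checkRange_sound 9 (by norm_num) pf14 h52
  have h54 := Fast.checkRange_sound 9 (by norm_num) pf15 h53
  exact Fast.not_sat_of_shr (c := cls 34829) (by decide +kernel) (h54 34829 (by norm_num))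

end Vale.Agent.P048.Sat.Z7x17
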